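import Vale.Agent.P137.AllU

open MeasureTheory
open scoped ENNReal

namespace Vale.Agent.Results.P137.Both

open Vale.Agent.P137

theorem result (d : ℕ) (hd : 1 ≤ d) :
    ∃ C : ℝ, ∀ (f : E d → ℝ) (F : E d → E d), Integrable f → Integrable F → IsWeakGrad f F →
      ((∀ᵐ x, M f x < ∞) ∧ LocallyIntegrable (fun x => (M f x).toReal) ∧
        ∃ G : E d → E d, IsWeakGrad (fun x => (M f x).toReal) G ∧ Integrable G ∧
          ∫ x, ‖G x‖ ≤ C * ∫ x, ‖F x‖) ∧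
      ((∀ᵐ x, Mu f x < ∞) ∧ LocallyIntegrable (fun x => (Mu f x).toReal) ∧
        ∃ G : E d → E d, IsWeakGrad (fun x => (Mu f x).toReal) G ∧ Integrable G ∧
          ∫ x, ‖G x‖ ≤ C * ∫ x, ‖F x‖) := by
  obtain ⟨C₁, h₁⟩ := final_all d hd
  obtain ⟨C₂, h₂⟩ := finalU_all d hd
  refine ⟨max C₁ C₂, fun f F hf hF hw => ?_⟩
  have h0 : 0 ≤ ∫ x, ‖F x‖ := integral_nonneg fun _ => norm_nonneg _
  obtain ⟨a1, a2, G, a3, a4, a5⟩ := h₁ f F hf hF hw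
  obtain ⟨b1, b2, G', b3, b4, b5⟩ := h₂ f F hf hF hw
  exact ⟨⟨a1, a2, G, a3, a4, a5.trans (mul_le_mul_of_nonneg_right (le_max_left _ _) h0)⟩,
    ⟨b1, b2, G', b3, b4, b5.trans (mul_le_mul_of_nonneg_right (le_max_right _ _) h0)⟩⟩

end Vale.Agent.Results.P137.Both
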