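import Vale.Agent.P137.All

open MeasureTheory
open scoped ENNReal

namespace Vale.Agent.Results.P137.Centered

open Vale.Agent.P137

theorem result (d : ℕ) (hd : 1 ≤ d) :
    ∃ C : ℝ, ∀ (f : E d → ℝ) (F : E d → E d), Integrable f → Integrable F → IsWeakGrad f F →
      (∀ᵐ x, M f x < ∞) ∧ LocallyIntegrable (fun x => (M f x).toReal) ∧
      ∃ G : E d → E d, IsWeakGrad (fun x => (M f x).toReal) G ∧ Integrable G ∧
        ∫ x, ‖G x‖ ≤ C * ∫ x, ‖F x‖ :=
  final_all d hd

end Vale.Agent.Results.P137.Centered
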